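import Crest.Agent.R177.Design.Perm

set_option autoImplicit false
set_option linter.unusedSectionVars false

namespace Crest.Agent.R177.DesignAux

open Equiv

/-- colours: a graph and a sign -/
abbrev Col : Type := Fin 3 × Bool

/-- signed indicator of the graph `X` -/
def wt (R : Type) [Ring R] (X : Fin 3) (c : Col) : R := if c.1 = X then (if c.2 then 1 else -1) else 0

theorem wt_false (R : Type) [Ring R] (X Y : Fin 3) : wt R X (Y, false) = -wt R X (Y, true) := by
  unfold wt; split_ifs <;> simp_all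

theorem wt_ne {R : Type} [Ring R] {X : Fin 3} {c : Col} (h : c.1 ≠ X) : wt R X c = 0 := if_neg h

section general

variable {T C U W : Type} [Fintype T] [DecidableEq T] [Fintype C] [DecidableEq C] [Fintype U]
  [DecidableEq U] [Fintype W] [DecidableEq W] (Y : SlotSys T C U W)

omit [Fintype C] [Fintype W] [DecidableEq W] in
theorem card_E (ξ : T × C) : (Finset.univ.filter (fun e : Y.E => Y.cls e = ξ)).card =
    (Finset.univ.filter (fun x : U => Y.col x = ξ.2 ∧ ξ.1 ∈ Y.S x)).card := by
  refine Finset.card_bij (fun e _ => e.1.1) ?_ ?_ ?_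
  · rintro ⟨⟨x, t⟩, ht⟩ he
    simp only [Finset.mem_filter, Finset.mem_univ, true_and, SlotSys.cls] at he ⊢
    subst he
    exact ⟨rfl, ht⟩
  · rintro ⟨⟨x, t⟩, ht⟩ he ⟨⟨x', t'⟩, ht'⟩ he' h
    simp only [Finset.mem_filter, Finset.mem_univ, true_and, SlotSys.cls] at he he' h
    have := congrArg Prod.fst (he.trans he'.symm)
    simp only at this
    subst h this
    rfl
  · intro x hx
    simp only [Finset.mem_filter, Finset.mem_univ, true_and] at hx
    refine ⟨⟨(x, ξ.1), hx.2⟩, ?_, rfl⟩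
    simp only [Finset.mem_filter, Finset.mem_univ, true_and, SlotSys.cls]
    rw [hx.1]

omit [Fintype U] [DecidableEq U] in
theorem card_WS (ξ : T × C) : (Finset.univ.filter (fun s : Y.WS => s.1.2 = ξ)).card =
    (Finset.univ.filter (fun κ : W => ξ ∈ Y.slots κ)).card := by
  refine Finset.card_bij (fun s _ => s.1.1) ?_ ?_ ?_
  · rintro ⟨⟨κ, ζ⟩, hζ⟩ he
    simp only [Finset.mem_filter, Finset.mem_univ, true_and] at he ⊢
    subst he
    exact hζ
  · rintro ⟨⟨κ, ζ⟩, hζ⟩ he ⟨⟨κ', ζ'⟩, hζ'⟩ he' h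
    simp only [Finset.mem_filter, Finset.mem_univ, true_and] at he he' h
    subst h he he'
    rfl
  · intro κ hκ
    simp only [Finset.mem_filter, Finset.mem_univ, true_and] at hκ
    exact ⟨⟨(κ, ξ), hκ⟩, by simp, rfl⟩

end general

variable {T L : Type} [Fintype T] [DecidableEq T] [Fintype L] [DecidableEq L]

/-- graph `0` owns the letters outside `Sb`, the other two graphs own the letters in `Sb` -/
def own (Sb : Finset T) (X : Fin 3) (t : T) : Prop := X = 0 ↔ t ∉ Sb

instance (Sb : Finset T) (X : Fin 3) (t : T) : Decidable (own Sb X t) := by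
  unfold own; infer_instance

/-- the number of extra vertices of colour `c` containing `t` -/
def extra (Sa Sb : Finset T) (c : Col) (t : T) : ℕ :=
  (if ((0 : Fin 3), true) = c ∧ t ∈ Sa then 1 else 0) +
    (if ((1 : Fin 3), true) = c ∧ t ∈ Sb then 1 else 0)

omit [Fintype T] in
theorem extra_le (Sa Sb : Finset T) (c : Col) (t : T) : extra Sa Sb c t ≤ 1 := by
  unfold extra
  split_ifs with h1 h2
  · exact absurd (h1.1.trans h2.1.symm) (by decide)
  all_goals omega

omit [Fintype T] in
theorem extra_eq_zero {Sa Sb : Finset T} (hd : Disjoint Sa Sb) {c : Col} {t : T}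
    (h : ¬ own Sb c.1 t) : extra Sa Sb c t = 0 := by
  unfold extra
  unfold own at h
  rw [if_neg, if_neg]
  · rintro ⟨rfl, h2⟩
    exact h ⟨fun h3 => absurd h3 (by decide), fun h3 => absurd h2 h3⟩
  · rintro ⟨rfl, h2⟩
    exact h ⟨fun _ => Finset.disjoint_left.1 hd h2, fun _ => rfl⟩

/-- membership of a letter in a block connector -/
def InB (π : Perm T) (Sa Sb : Finset T) (M : ℕ) (c : Col) (β : Finset T) (i : ℕ) (t : T) : Prop :=
  blk π t = β ∧ own Sb c.1 t ∧ i < M + extra Sa Sb c t

instance (π : Perm T) (Sa Sb : Finset T) (M : ℕ) (c : Col) (β : Finset T) (i : ℕ) :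
    DecidablePred (InB π Sa Sb M c β i) := fun t => by unfold InB; infer_instance

/-- the slot system -/
def sys (π : Perm T) (I : L → Finset T) (Sa Sb : Finset T) (N M : ℕ) :
    SlotSys T Col ((Col × L × Fin N) ⊕ Bool)
      ((Col × Finset T × Fin (M + 1)) ⊕ (Fin 3 × T × Fin M)) where
  col x := match x with
    | .inl y => y.1
    | .inr b => (if b then 1 else 0, true)
  S x := match x with
    | .inl y => I y.2.1
    | .inr b => if b then Sb else Sa
  slots κ := match κ with
    | .inl y => (Finset.univ.filter (InB π Sa Sb M y.1 y.2.1 y.2.2)).image (fun t => (t, y.1))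
    | .inr y => if own Sb y.1 y.2.1 then ∅ else {(y.2.1, (y.1, true)), (π y.2.1, (y.1, false))}

/-- the colour transition -/
def tau (Sb : Finset T) (t _t' : T) (c : Col) : Col := if own Sb c.1 t then c else (c.1, !c.2)

variable {π : Perm T} {I : L → Finset T} {Sa Sb : Finset T} {N M : ℕ}

omit [Fintype L] [DecidableEq L] in
theorem mem_slots_inl {y : Col × Finset T × Fin (M + 1)} {ξ : T × Col} :
    ξ ∈ (sys π I Sa Sb N M).slots (.inl y) ↔ y.1 = ξ.2 ∧ InB π Sa Sb M y.1 y.2.1 y.2.2 ξ.1 := by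
  obtain ⟨t, c⟩ := ξ
  simp only [sys, Finset.mem_image, Finset.mem_filter, Finset.mem_univ, true_and, Prod.mk.injEq]
  constructor
  · rintro ⟨s, h1, rfl, h2⟩
    exact ⟨h2, h1⟩
  · rintro ⟨h1, h2⟩
    exact ⟨t, h2, rfl, h1⟩

omit [Fintype L] [DecidableEq L] in
theorem mem_slots_inr {y : Fin 3 × T × Fin M} {ξ : T × Col} :
    ξ ∈ (sys π I Sa Sb N M).slots (.inr y) ↔
      ¬ own Sb y.1 y.2.1 ∧ (ξ = (y.2.1, (y.1, true)) ∨ ξ = (π y.2.1, (y.1, false))) := by
  simp only [sys]
  split_ifs with h <;> simp [h]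

theorem count_U {q : ℕ} (hI : ∀ t, (Finset.univ.filter (fun l => t ∈ I l)).card = q + 1)
    (t : T) (c : Col) :
    (Finset.univ.filter (fun x => (sys π I Sa Sb N M).col x = c ∧
      t ∈ (sys π I Sa Sb N M).S x)).card = (q + 1) * N + extra Sa Sb c t := by
  rw [Finset.card_filter, Fintype.sum_sum_type]
  congr 1
  · rw [← hI t, Finset.card_filter, Fintype.sum_prod_type, Finset.sum_eq_single c]
    · rw [Fintype.sum_prod_type, Finset.sum_mul]
      refine Finset.sum_congr rfl fun l _ => ?_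
      simp [sys]
    · intro c' _ hc
      simp [sys, hc]
    · simp
  · rw [Fintype.sum_bool, extra, add_comm]
    simp [sys]

theorem count_pair (hI : ∀ s t, s ≠ t → (Finset.univ.filter (fun l => s ∈ I l ∧ t ∈ I l)).card ≤ 1)
    (c : Col) (s t : T) (hst : s ≠ t) :
    (Finset.univ.filter (fun x => (sys π I Sa Sb N M).col x = c ∧
      s ∈ (sys π I Sa Sb N M).S x ∧ t ∈ (sys π I Sa Sb N M).S x)).card ≤ N + 1 := by
  rw [Finset.card_filter, Fintype.sum_sum_type]
  refine add_le_add ?_ ?_
  · refine le_trans (le_of_eq ?_) ((Nat.mul_le_mul_right N (hI s t hst)).trans (by rw [one_mul]))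
    rw [Finset.card_filter, Fintype.sum_prod_type, Finset.sum_eq_single c]
    · rw [Fintype.sum_prod_type, Finset.sum_mul]
      refine Finset.sum_congr rfl fun l _ => ?_
      simp [sys]
    · intro c' _ hc
      simp [sys, hc]
    · simp
  · rw [Fintype.sum_bool]
    split_ifs with h1 h2
    · exact absurd (h1.1.trans h2.1.symm) (by simp [sys])
    all_goals omega

omit [Fintype L] [DecidableEq L] in
theorem count_W (hd : Disjoint Sa Sb) (hb : ∀ t, π t ∈ Sb ↔ t ∈ Sb) (t : T) (c : Col) :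
    (Finset.univ.filter (fun κ => (t, c) ∈ (sys π I Sa Sb N M).slots κ)).card =
      M + extra Sa Sb c t := by
  rw [Finset.card_filter, Fintype.sum_sum_type]
  simp only [mem_slots_inl, mem_slots_inr]
  have h1 : (∑ y : Col × Finset T × Fin (M + 1),
      if y.1 = c ∧ InB π Sa Sb M y.1 y.2.1 y.2.2 t then 1 else 0) =
      if own Sb c.1 t then M + extra Sa Sb c t else 0 := by
    rw [Fintype.sum_prod_type, Finset.sum_eq_single c, Fintype.sum_prod_type,
      Finset.sum_eq_single (blk π t)]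
    · split_ifs with h
      · simp only [InB, h, true_and]
        rw [Fin.sum_univ_eq_sum_range (fun i => if i < M + extra Sa Sb c t then 1 else 0) (M + 1),
          ← Finset.card_filter]
        have := extra_le Sa Sb c t
        have h2 : (Finset.range (M + 1)).filter (fun i => i < M + extra Sa Sb c t) =
            Finset.range (M + extra Sa Sb c t) := by
          ext i
          simp only [Finset.mem_filter, Finset.mem_range]
          omega
        rw [h2, Finset.card_range]
      · simp [InB, h]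
    · intro β _ hβ
      simp [InB, hβ.symm]
    · simp
    · intro c' _ hc
      simp [hc]
    · simp
  have h2 : (∑ y : Fin 3 × T × Fin M,
      if ¬ own Sb y.1 y.2.1 ∧ ((t, c) = (y.2.1, (y.1, true)) ∨ (t, c) = (π y.2.1, (y.1, false)))
        then 1 else 0) = if own Sb c.1 t then 0 else M := by
    obtain ⟨X, s⟩ := c
    rw [Fintype.sum_prod_type, Finset.sum_eq_single X, Fintype.sum_prod_type]
    · cases s
      · rw [Finset.sum_eq_single (π.symm t)]
        · have : own Sb X (π.symm t) ↔ own Sb X t := by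
            unfold own; rw [← hb (π.symm t), Equiv.apply_symm_apply]
          by_cases h : own Sb X t <;> simp [this, h]
        · intro t' _ ht'
          have : t ≠ π t' := fun h => ht' (by rw [h, Equiv.symm_apply_apply])
          simp [this]
        · simp
      · rw [Finset.sum_eq_single t]
        · by_cases h : own Sb X t <;> simp [h]
        · intro t' _ ht'
          simp [ht'.symm]
        · simp
    · intro X' _ hX
      simp [hX.symm]
    · simp
  rw [h1, h2]
  split_ifs with h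
  · rfl
  · rw [extra_eq_zero hd h]; omega

theorem bounds {q : ℕ} (h0 : ∀ t, π t ≠ t) (h1 : ∀ t, π (π t) = t ∨ π (π (π t)) = t)
    (hb : ∀ t, π t ∈ Sb ↔ t ∈ Sb) (hd : Disjoint Sa Sb)
    (hI : ∀ t, (Finset.univ.filter (fun l => t ∈ I l)).card = q + 1)
    (hI' : ∀ s t, s ≠ t → (Finset.univ.filter (fun l => s ∈ I l ∧ t ∈ I l)).card ≤ 1) :
    (sys π I Sa Sb N ((q + 1) * N)).Bounds π (tau Sb) q N := by
  have hown : ∀ X t, own Sb X (π t) ↔ own Sb X t := fun X t => by unfold own; rw [hb]
  refine ⟨?_, ?_, ?_, ?_, ?_, ?_, fun c s t hst => count_pair hI' c s t hst⟩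
  · rintro (y | y) ξ hξ ξ' hξ' h
    · rw [mem_slots_inl] at hξ hξ'
      exact Prod.ext h (hξ.1.symm.trans hξ'.1)
    · rw [mem_slots_inr] at hξ hξ'
      rcases hξ.2 with rfl | rfl <;> rcases hξ'.2 with rfl | rfl
      · rfl
      · exact absurd h.symm (h0 _)
      · exact absurd h (h0 _)
      · rfl
  · rintro (y | y) ξ hξ ξ' hξ' h
    · rw [mem_slots_inl] at hξ hξ'
      exact rel_of_blk h1 (hξ.2.1.trans hξ'.2.1.symm)
        fun h' => h (Prod.ext h' (hξ.1.symm.trans hξ'.1))
    · rw [mem_slots_inr] at hξ hξ'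
      rcases hξ.2 with rfl | rfl <;> rcases hξ'.2 with rfl | rfl
      · exact absurd rfl h
      · exact Or.inl rfl
      · exact Or.inr rfl
      · exact absurd rfl h
  · rintro (y | y) ξ hξ ξ' hξ' h
    · rw [mem_slots_inl] at hξ hξ'
      rw [tau, ← hξ.1, if_pos hξ.2.2.1, hξ'.1]
    · rw [mem_slots_inr] at hξ hξ'
      rcases hξ.2 with rfl | rfl <;> rcases hξ'.2 with rfl | rfl
      · exact absurd rfl h
      · simp [tau, hξ.1]
      · simp [tau, hξ.1, hown]
      · exact absurd rfl h
  · rintro ⟨t, c⟩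
    rw [card_E, card_WS, count_U hI, count_W hd hb]
  · intro e
    rw [card_E, count_U hI]
    exact Nat.le_add_right _ _
  · intro ξ
    rw [card_E, count_U hI]
    exact Nat.add_le_add_left (extra_le _ _ _ _) _

omit [Fintype L] [DecidableEq L] in
theorem own_of_mem {κ} {ξ : T × Col} (hb : ∀ t, π t ∈ Sb ↔ t ∈ Sb)
    (h : ξ ∈ (sys π I Sa Sb N M).slots κ) : own Sb ξ.2.1 ξ.1 ↔ κ.isLeft = true := by
  rcases κ with y | y
  · rw [mem_slots_inl] at h
    simpa [← h.1] using h.2.2.1
  · rw [mem_slots_inr] at h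
    have hown : ∀ X t, own Sb X (π t) ↔ own Sb X t := fun X t => by unfold own; rw [hb]
    rcases h.2 with rfl | rfl <;> simpa [hown] using h.1

omit [Fintype L] [DecidableEq L] in
theorem conn_mixed {R : Type} [CommRing R] (h0 : ∀ t, π t ≠ t)
    (h1 : ∀ t, π (π t) = t ∨ π (π (π t)) = t)
    (ha : ∀ t, π t ∈ Sa ↔ t ∈ Sa) (hb : ∀ t, π t ∈ Sb ↔ t ∈ Sb) (X Y : Fin 3)
    (y : Col × Finset T × Fin (M + 1)) (y' : Fin 3 × T × Fin M) :
    ∑ ξ ∈ (sys π I Sa Sb N M).slots (.inl y), ∑ ξ' ∈ (sys π I Sa Sb N M).slots (.inr y'),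
      (if ξ.1 = ξ'.1 then wt R X ξ.2 * wt R Y ξ'.2 else 0) = 0 := by
  have hin : ∀ t, InB π Sa Sb M y.1 y.2.1 y.2.2 (π t) ↔ InB π Sa Sb M y.1 y.2.1 y.2.2 t := by
    intro t
    unfold InB own extra
    rw [blk_apply h1]
    simp only [ha, hb]
  simp only [sys]
  split_ifs with h
  · simp
  · rw [Finset.sum_image (fun s _ t _ hst => congrArg Prod.fst hst), Finset.sum_comm,
      Finset.sum_pair (fun h' => h0 _ (congrArg Prod.fst h').symm)]
    simp only [Finset.sum_ite_eq', Finset.mem_filter, Finset.mem_univ, true_and, hin, wt_false]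
    split_ifs <;> ring

omit [Fintype L] [DecidableEq L] in
theorem conn {R : Type} [CommRing R] (h0 : ∀ t, π t ≠ t)
    (h1 : ∀ t, π (π t) = t ∨ π (π (π t)) = t)
    (ha : ∀ t, π t ∈ Sa ↔ t ∈ Sa) (hb : ∀ t, π t ∈ Sb ↔ t ∈ Sb) (Y : Fin 3) (hY : Y ≠ 0)
    (κ κ' : (Col × Finset T × Fin (M + 1)) ⊕ (Fin 3 × T × Fin M)) :
    ∑ ξ ∈ (sys π I Sa Sb N M).slots κ, ∑ ξ' ∈ (sys π I Sa Sb N M).slots κ',
      (if ξ.1 = ξ'.1 then wt R 0 ξ.2 * wt R Y ξ'.2 else 0) = 0 := by
  by_cases hk : κ.isLeft = κ'.isLeft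
  · refine Finset.sum_eq_zero fun ξ hξ => Finset.sum_eq_zero fun ξ' hξ' => ?_
    split_ifs with h
    · by_cases e1 : ξ.2.1 = 0
      · by_cases e2 : ξ'.2.1 = Y
        · have f1 := own_of_mem hb hξ
          have f2 := own_of_mem hb hξ'
          rw [hk, ← f2, e1, e2, h] at f1
          unfold own at f1
          simp [hY] at f1
        · rw [wt_ne e2, mul_zero]
      · rw [wt_ne e1, zero_mul]
    · rfl
  · rcases κ with y | y <;> rcases κ' with y' | y'
    · exact absurd rfl hk
    · exact conn_mixed h0 h1 ha hb 0 Y y y'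
    · rw [Finset.sum_comm]
      refine Eq.trans ?_ (conn_mixed (R := R) (I := I) (N := N) h0 h1 ha hb Y 0 y' y)
      refine Finset.sum_congr rfl fun ξ _ => Finset.sum_congr rfl fun ξ' _ => ?_
      simp only [eq_comm (a := ξ.1), mul_comm]
    · exact absurd rfl hk

end Crest.Agent.R177.DesignAux
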