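import Crest.Agent.R177.Defs

set_option autoImplicit false

namespace Crest.Agent.R177.DesignAux

open Equiv

variable {T : Type} [Fintype T] [DecidableEq T]

/-- `σ` is supported exactly on `S`, has cycles of length `2` or `3`, and at most `k` points lie on
cycles of length `3`. -/
structure Good (S : Finset T) (σ : Perm T) (k : ℕ) : Prop where
  off : ∀ t, t ∉ S → σ t = t
  on : ∀ t ∈ S, σ t ≠ t
  ord : ∀ t, σ (σ t) = t ∨ σ (σ (σ t)) = t
  bad : (Finset.univ.filter (fun t => σ (σ t) ≠ t)).card ≤ k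

theorem Good.mem {S : Finset T} {σ : Perm T} {k : ℕ} (h : Good S σ k) {t : T} (ht : t ∈ S) :
    σ t ∈ S := by
  by_contra h'
  exact h.on t ht (σ.injective (h.off _ h'))

theorem Good.mem_iff {S : Finset T} {σ : Perm T} {k : ℕ} (h : Good S σ k) {t : T} :
    σ t ∈ S ↔ t ∈ S := by
  refine ⟨fun h' => ?_, h.mem⟩
  by_contra ht
  rw [h.off t ht] at h'
  exact ht h'

theorem Good.mul_left {S S' : Finset T} {σ σ' : Perm T} {k' : ℕ} (hd : Disjoint S S')
    (h' : Good S' σ' k') {t : T} (ht : t ∈ S) : (σ * σ') t = σ t := by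
  rw [Perm.mul_apply, h'.off t (Finset.disjoint_left.1 hd ht)]

theorem Good.mul_right {S S' : Finset T} {σ σ' : Perm T} {k k' : ℕ} (hd : Disjoint S S')
    (h : Good S σ k) (h' : Good S' σ' k') {t : T} (ht : t ∉ S) : σ' t ∉ S ∧ (σ * σ') t = σ' t := by
  have h1 : σ' t ∉ S := by
    by_cases ht' : t ∈ S'
    · exact Finset.disjoint_right.1 hd (h'.mem ht')
    · rwa [h'.off t ht']
  exact ⟨h1, by rw [Perm.mul_apply, h.off _ h1]⟩

theorem Good.glue {S S' : Finset T} {σ σ' : Perm T} {k k' : ℕ} (hd : Disjoint S S')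
    (h : Good S σ k) (h' : Good S' σ' k') : Good (S ∪ S') (σ * σ') (k + k') := by
  have hl : ∀ t ∈ S, (σ * σ') t = σ t := fun t ht => Good.mul_left hd h' ht
  have hr : ∀ t, t ∉ S → σ' t ∉ S ∧ (σ * σ') t = σ' t := fun t ht => Good.mul_right hd h h' ht
  refine ⟨fun t ht => ?_, fun t ht => ?_, fun t => ?_, ?_⟩
  · rw [Finset.mem_union, not_or] at ht
    rw [(hr t ht.1).2, h'.off t ht.2]
  · by_cases hS : t ∈ S
    · rw [hl t hS]; exact h.on t hS
    · rw [(hr t hS).2]
      exact h'.on t ((Finset.mem_union.1 ht).resolve_left hS)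
  · by_cases hS : t ∈ S
    · rw [hl t hS, hl _ (h.mem hS), hl _ (h.mem (h.mem hS))]
      exact h.ord t
    · rw [(hr t hS).2, (hr _ (hr t hS).1).2, (hr _ (hr _ (hr t hS).1).1).2]
      exact h'.ord t
  · refine le_trans (Finset.card_le_card (t := Finset.univ.filter (fun t => σ (σ t) ≠ t) ∪
      Finset.univ.filter (fun t => σ' (σ' t) ≠ t)) fun t ht => ?_)
      ((Finset.card_union_le _ _).trans (add_le_add h.bad h'.bad))
    simp only [Finset.mem_filter, Finset.mem_univ, true_and, Finset.mem_union] at ht ⊢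
    by_cases hS : t ∈ S
    · rw [hl t hS, hl _ (h.mem hS)] at ht
      exact Or.inl ht
    · rw [(hr t hS).2, (hr _ (hr t hS).1).2] at ht
      exact Or.inr ht

theorem good_swap {x y : T} (hxy : x ≠ y) : Good {x, y} (swap x y) 0 := by
  refine ⟨fun t ht => ?_, fun t ht => ?_, fun t => Or.inl (swap_apply_self _ _ _), by simp⟩
  · simp only [Finset.mem_insert, Finset.mem_singleton, not_or] at ht
    exact swap_apply_of_ne_of_ne ht.1 ht.2
  · simp only [Finset.mem_insert, Finset.mem_singleton] at ht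
    rcases ht with rfl | rfl
    · rw [swap_apply_left]; exact hxy.symm
    · rw [swap_apply_right]; exact hxy

theorem good_three {x y z : T} (hxy : x ≠ y) (hxz : x ≠ z) (hyz : y ≠ z) :
    Good {x, y, z} (swap x y * swap y z) 3 := by
  have h1 : (swap x y * swap y z) x = y := by
    rw [Perm.mul_apply, swap_apply_of_ne_of_ne hxy hxz, swap_apply_left]
  have h2 : (swap x y * swap y z) y = z := by
    rw [Perm.mul_apply, swap_apply_left, swap_apply_of_ne_of_ne hxz.symm hyz.symm]
  have h3 : (swap x y * swap y z) z = x := by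
    rw [Perm.mul_apply, swap_apply_right, swap_apply_right]
  have h4 : ∀ t, t ∉ ({x, y, z} : Finset T) → (swap x y * swap y z) t = t := by
    intro t ht
    simp only [Finset.mem_insert, Finset.mem_singleton, not_or] at ht
    rw [Perm.mul_apply, swap_apply_of_ne_of_ne ht.2.1 ht.2.2, swap_apply_of_ne_of_ne ht.1 ht.2.1]
  refine ⟨h4, fun t ht => ?_, fun t => ?_, ?_⟩
  · simp only [Finset.mem_insert, Finset.mem_singleton] at ht
    rcases ht with rfl | rfl | rfl
    · rw [h1]; exact hxy.symm
    · rw [h2]; exact hyz.symm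
    · rw [h3]; exact hxz
  · by_cases ht : t ∈ ({x, y, z} : Finset T)
    · simp only [Finset.mem_insert, Finset.mem_singleton] at ht
      right
      rcases ht with rfl | rfl | rfl
      · rw [h1, h2, h3]
      · rw [h2, h3, h1]
      · rw [h3, h1, h2]
    · left
      rw [h4 t ht, h4 t ht]
  · refine le_trans (Finset.card_le_card (t := {x, y, z}) fun t ht => ?_) Finset.card_le_three
    by_contra h
    simp only [Finset.mem_filter, Finset.mem_univ, true_and] at ht
    exact ht (by rw [h4 t h, h4 t h])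

theorem exists_good (S : Finset T) (hS : 2 ≤ S.card) : ∃ σ, Good S σ 3 := by
  induction h : S.card using Nat.strong_induction_on generalizing S with
  | _ n ih =>
    obtain ⟨x, hx, y, hy, hxy⟩ := Finset.one_lt_card.1 hS
    have hsub : ({x, y} : Finset T) ⊆ S := by
      intro t ht
      simp only [Finset.mem_insert, Finset.mem_singleton] at ht
      rcases ht with rfl | rfl <;> assumption
    have hc : (S \ {x, y}).card + 2 = S.card := by
      rw [← Finset.card_pair hxy, Finset.card_sdiff_add_card_eq_card hsub]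
    by_cases h2 : S.card = 2
    · obtain ⟨a, b, hab, rfl⟩ := Finset.card_eq_two.1 h2
      exact ⟨_, (good_swap hab).1, (good_swap hab).2, (good_swap hab).3,
        (good_swap hab).4.trans (Nat.zero_le _)⟩
    by_cases h3 : S.card = 3
    · obtain ⟨a, b, c, hab, hac, hbc, rfl⟩ := Finset.card_eq_three.1 h3
      exact ⟨_, good_three hab hac hbc⟩
    obtain ⟨σ, hσ⟩ := ih (S \ {x, y}).card (by omega) (S \ {x, y}) (by omega) rfl
    have := Good.glue Finset.sdiff_disjoint hσ (good_swap hxy)
    rw [Finset.sdiff_union_of_subset hsub] at this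
    exact ⟨_, this⟩

theorem exists_perm (Sa Sb : Finset T) (hd : Disjoint Sa Sb) (ha : 2 ≤ Sa.card) (hb : 2 ≤ Sb.card)
    (hc : 2 ≤ (Finset.univ \ (Sa ∪ Sb)).card) :
    ∃ π : Perm T, (∀ t, π t ≠ t) ∧ (∀ t, π (π t) = t ∨ π (π (π t)) = t) ∧
      (∀ t, π t ∈ Sa ↔ t ∈ Sa) ∧ (∀ t, π t ∈ Sb ↔ t ∈ Sb) ∧
      (blkPairs π).card ≤ Fintype.card T + 9 := by
  obtain ⟨σa, h1⟩ := exists_good Sa ha
  obtain ⟨σb, h2⟩ := exists_good Sb hb
  obtain ⟨σc, h3⟩ := exists_good _ hc
  have h12 := Good.glue hd h1 h2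
  have hd' : Disjoint (Sa ∪ Sb) (Finset.univ \ (Sa ∪ Sb)) := Finset.disjoint_sdiff
  have h := Good.glue hd' h12 h3
  rw [Finset.union_sdiff_of_subset (Finset.subset_univ _)] at h
  have hin : ∀ t ∈ Sa ∪ Sb, (σa * σb * σc) t = (σa * σb) t := fun t ht => Good.mul_left hd' h3 ht
  have hout : ∀ t, t ∉ Sa ∪ Sb → (σa * σb * σc) t ∉ Sa ∪ Sb := fun t ht => by
    rw [(Good.mul_right hd' h12 h3 ht).2]
    exact (Good.mul_right hd' h12 h3 ht).1
  have hA : ∀ t ∈ Sa, (σa * σb * σc) t ∈ Sa := fun t ht => by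
    rw [hin t (Finset.mem_union_left _ ht), Good.mul_left hd h2 ht]
    exact h1.mem ht
  have hB : ∀ t ∈ Sb, (σa * σb * σc) t ∈ Sb := fun t ht => by
    rw [hin t (Finset.mem_union_right _ ht),
      (Good.mul_right hd h1 h2 (Finset.disjoint_right.1 hd ht)).2]
    exact h2.mem ht
  refine ⟨σa * σb * σc, fun t => h.on t (Finset.mem_univ _), h.ord, fun t => ⟨fun ht => ?_, hA t⟩,
    fun t => ⟨fun ht => ?_, hB t⟩, ?_⟩
  · by_contra ht'
    by_cases hb' : t ∈ Sb
    · exact Finset.disjoint_left.1 hd ht (hB t hb')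
    · exact hout t (by simp [ht', hb']) (Finset.mem_union_left _ ht)
  · by_contra ht'
    by_cases ha' : t ∈ Sa
    · exact Finset.disjoint_left.1 hd (hA t ha') ht
    · exact hout t (by simp [ht', ha']) (Finset.mem_union_right _ ht)
  · set π := σa * σb * σc
    have hsub : blkPairs π ⊆ Finset.univ.image (fun t => (t, π t)) ∪
        (Finset.univ.filter (fun t => π (π t) ≠ t)).image (fun t => (π t, t)) := by
      rintro ⟨s, t⟩ hst
      simp only [blkPairs, Finset.mem_filter, Finset.mem_univ, true_and] at hst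
      simp only [Finset.mem_union, Finset.mem_image, Finset.mem_univ, true_and, Finset.mem_filter,
        Prod.mk.injEq]
      rcases hst.2 with h4 | h4
      · exact Or.inl ⟨s, rfl, h4.symm⟩
      · by_cases h5 : π (π t) = t
        · exact Or.inl ⟨s, rfl, by rw [h4, h5]⟩
        · exact Or.inr ⟨t, h5, h4.symm, rfl⟩
    refine (Finset.card_le_card hsub).trans ((Finset.card_union_le _ _).trans (add_le_add ?_ ?_))
    · exact Finset.card_image_le.trans (by rw [Finset.card_univ])
    · exact Finset.card_image_le.trans h.bad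

/-- the block of a letter -/
def blk (π : Perm T) (t : T) : Finset T := {t, π t, π (π t)}

omit [Fintype T] in
theorem blk_apply {π : Perm T} (h : ∀ t, π (π t) = t ∨ π (π (π t)) = t) (t : T) :
    blk π (π t) = blk π t := by
  ext s
  simp only [blk, Finset.mem_insert, Finset.mem_singleton]
  rcases h t with h1 | h1
  · rw [h1]; tauto
  · rw [h1]; tauto

omit [Fintype T] in
theorem rel_of_blk {π : Perm T} (h : ∀ t, π (π t) = t ∨ π (π (π t)) = t) {s t : T}
    (hst : blk π s = blk π t) (hne : s ≠ t) : t = π s ∨ s = π t := by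
  have : s ∈ blk π t := by rw [← hst]; simp [blk]
  simp only [blk, Finset.mem_insert, Finset.mem_singleton] at this
  rcases this with h1 | h1 | h1
  · exact absurd h1 hne
  · exact Or.inr h1
  · rcases h t with h2 | h2
    · exact absurd (h1.trans h2) hne
    · left; rw [h1, h2]

end Crest.Agent.R177.DesignAux
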